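/-
P235-M, helper30.  STEP 5 of the mixing theorem (helper882, row 2438), abstract form.

Strands are named by their position at some fixed time; `L T0 T1 R` give the positions of the
strands at four times `L ≤ T0 ≤ T1 ≤ R`.  `low` is a lower set of levels.
`flux low A B` = number of strands which are low at time `A` and not low at time `B`.
From the pair inequality (PM) for the two prefixes `[L,T0]`, `[L,T1]` we get
`E flux(T0,T1)^2 ≤ (8 K + 8) E flux(L,R)^2`.
-/
import Mathlib

namespace VPBruhat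

open Equiv Finset

section defs

variable {α : Type*} [LinearOrder α] [Fintype α]

open Classical in
/-- number of strands which are low at time `A` and not low at time `B` -/
noncomputable def flux (low : α → Prop) (A B : Perm α) : ℕ :=
  ((Finset.univ : Finset α).filter (fun p => low (A p) ∧ ¬ low (B p))).card

/-- the strands `p`, `q` are in different orders at the times `A` and `B` -/
def Crossed (A B : Perm α) (p q : α) : Prop := ¬ (A p < A q ↔ B p < B q)

/-- at both times `L` and `R` exactly one of the two strands is low -/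
def Sep (low : α → Prop) (L R : Perm α) (p q : α) : Prop :=
  ¬ (low (L p) ↔ low (L q)) ∧ ¬ (low (R p) ↔ low (R q))

omit [Fintype α] in
theorem Crossed.symm {A B : Perm α} {p q : α} (hpq : p ≠ q) (h : Crossed A B p q) :
    Crossed A B q p := by
  unfold Crossed at h ⊢
  have hA : A p ≠ A q := fun h => hpq (A.injective h)
  have hB : B p ≠ B q := fun h => hpq (B.injective h)
  intro hc
  apply h
  constructor
  · intro h1
    by_contra h2
    exact absurd (hc.2 (lt_of_le_of_ne (not_lt.1 h2) hB.symm)) (not_lt.2 h1.le)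
  · intro h1
    by_contra h2
    exact absurd (hc.1 (lt_of_le_of_ne (not_lt.1 h2) hA.symm)) (not_lt.2 h1.le)

open Classical in
/-- going down is as frequent as going up -/
theorem flux_down (low : α → Prop) (A B : Perm α) :
    ((Finset.univ : Finset α).filter (fun p => ¬ low (A p) ∧ low (B p))).card = flux low A B := by
  classical
  have h1 : ((Finset.univ : Finset α).filter (fun p => low (A p))).card =
      ((Finset.univ : Finset α).filter (fun p => low (B p))).card := by
    have e : ∀ C : Perm α, ((Finset.univ : Finset α).filter (fun p => low (C p))).card =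
        ((Finset.univ : Finset α).filter low).card := by
      intro C
      refine Finset.card_bij (fun p _ => C p) ?_ ?_ ?_
      · intro p hp; simpa using hp
      · intro p _ q _ h; exact C.injective h
      · intro q hq; exact ⟨C.symm q, by simpa using hq, by simp⟩
    rw [e A, e B]
  have hA : ((Finset.univ : Finset α).filter (fun p => low (A p))).card =
      ((Finset.univ : Finset α).filter (fun p => low (A p) ∧ low (B p))).card + flux low A B := by
    unfold flux
    rw [← Finset.card_union_of_disjoint]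
    · congr 1; ext p; simp only [Finset.mem_filter, Finset.mem_univ, true_and, Finset.mem_union]
      tauto
    · rw [Finset.disjoint_left]; intro p hp hq
      simp only [Finset.mem_filter, Finset.mem_univ, true_and] at hp hq
      exact hq.2 hp.2
  have hB : ((Finset.univ : Finset α).filter (fun p => low (B p))).card =
      ((Finset.univ : Finset α).filter (fun p => low (A p) ∧ low (B p))).card +
      ((Finset.univ : Finset α).filter (fun p => ¬ low (A p) ∧ low (B p))).card := by
    rw [← Finset.card_union_of_disjoint]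
    · congr 1; ext p; simp only [Finset.mem_filter, Finset.mem_univ, true_and, Finset.mem_union]
      tauto
    · rw [Finset.disjoint_left]; intro p hp hq
      simp only [Finset.mem_filter, Finset.mem_univ, true_and] at hp hq
      exact hq.1 hp.1
  omega

/-- `r_[T0,T1] ≤ r_[L,T0] + r_[L,T1]` -/
theorem flux_le_add (low : α → Prop) (L T0 T1 : Perm α) :
    flux low T0 T1 ≤ flux low L T0 + flux low L T1 := by
  classical
  rw [← flux_down low L T0]
  unfold flux
  refine le_trans (Finset.card_le_card ?_) (Finset.card_union_le _ _)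
  intro p hp
  simp only [Finset.mem_filter, Finset.mem_univ, true_and, Finset.mem_union] at hp ⊢
  by_cases h : low (L p)
  · exact Or.inr ⟨h, hp.2⟩
  · exact Or.inl ⟨h, hp.1⟩

open Classical in
/-- the ordered pairs which are crossed in `[L,T]` and separated at both ends of `[L,R]` -/
noncomputable def pairs (low : α → Prop) (L T R : Perm α) : Finset (α × α) :=
  (Finset.univ : Finset (α × α)).filter
    (fun w => Crossed L T w.1 w.2 ∧ Sep low L R w.1 w.2)

theorem mem_pairs (low : α → Prop) (L T R : Perm α) (p q : α) :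
    (p, q) ∈ pairs low L T R ↔ (¬ (L p < L q ↔ T p < T q) ∧
      ¬(low (L p) ↔ low (L q)) ∧ ¬(low (R p) ↔ low (R q))) := by
  classical
  unfold pairs
  simp only [Finset.mem_filter, Finset.mem_univ, true_and]
  exact Iff.rfl

/-- ordered pairs crossed in the whole window and separated at both ends: exactly `2 r^2` -/
theorem card_pairs_eq (low : α → Prop) (hlow : ∀ x y, x ≤ y → low y → low x)
    (L R : Perm α) : (pairs low L R R).card = 2 * (flux low L R) ^ 2 := by
  classical
  have hle : ∀ x y, low x → ¬ low y → x < y := by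
    intro x y hx hy
    by_contra h
    exact hy (hlow _ _ (not_lt.1 h) hx)
  set U := (Finset.univ : Finset α).filter (fun p => low (L p) ∧ ¬ low (R p)) with hU
  set D := (Finset.univ : Finset α).filter (fun p => ¬ low (L p) ∧ low (R p)) with hD
  have hUc : U.card = flux low L R := rfl
  have hDc : D.card = flux low L R := flux_down low L R
  have e : pairs low L R R = (U ×ˢ D) ∪ (D ×ˢ U) := by
    ext ⟨p, q⟩
    rw [mem_pairs]
    simp only [hU, hD, Finset.mem_filter, Finset.mem_univ, true_and,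
      Finset.mem_union, Finset.mem_product]
    constructor
    · rintro ⟨h1, h2, h3⟩
      by_cases a : low (L p)
      · have b : ¬ low (L q) := fun hb => h2 ⟨fun _ => hb, fun _ => a⟩
        have hL := hle _ _ a b
        by_cases c : low (R p)
        · have d : ¬ low (R q) := fun hd => h3 ⟨fun _ => hd, fun _ => c⟩
          exact absurd ⟨fun _ => hle _ _ c d, fun _ => hL⟩ h1
        · have d : low (R q) := by
            by_contra hd
            exact h3 ⟨fun h => absurd h c, fun h => absurd h hd⟩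
          exact Or.inl ⟨⟨a, c⟩, b, d⟩
      · have b : low (L q) := by
          by_contra hb
          exact h2 ⟨fun h => absurd h a, fun h => absurd h hb⟩
        have hL := hle _ _ b a
        by_cases c : low (R p)
        · have d : ¬ low (R q) := fun hd => h3 ⟨fun _ => hd, fun _ => c⟩
          exact Or.inr ⟨⟨a, c⟩, b, d⟩
        · have d : low (R q) := by
            by_contra hd
            exact h3 ⟨fun h => absurd h c, fun h => absurd h hd⟩
          have hR := hle _ _ d c
          exact absurd ⟨fun h => absurd h (not_lt.2 hL.le), fun h => absurd h (not_lt.2 hR.le)⟩ h1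
    · rintro (⟨⟨a, c⟩, b, d⟩ | ⟨⟨a, c⟩, b, d⟩)
      · refine ⟨?_, ?_, ?_⟩
        · intro h
          exact absurd (h.1 (hle _ _ a b)) (not_lt.2 (hle _ _ d c).le)
        · intro h; exact b (h.1 a)
        · intro h; exact c (h.2 d)
      · refine ⟨?_, ?_, ?_⟩
        · intro h
          exact absurd (h.2 (hle _ _ c d)) (not_lt.2 (hle _ _ b a).le)
        · intro h; exact a (h.2 b)
        · intro h; exact d (h.1 c)
  rw [e, Finset.card_union_of_disjoint, Finset.card_product, Finset.card_product, hUc, hDc]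
  · ring
  · rw [Finset.disjoint_left]
    rintro ⟨p, q⟩ h1 h2
    simp only [hU, hD, Finset.mem_product, Finset.mem_filter, Finset.mem_univ, true_and] at h1 h2
    exact h2.1.1 h1.1.1

/-- ordered pairs crossed in the prefix `[L,T]` and separated at both ends of `[L,R]`: at least
`2 (r_[L,T] - r_[L,R])^2` -/
theorem le_card_pairs (low : α → Prop) (hlow : ∀ x y, x ≤ y → low y → low x)
    (L T R : Perm α) : 2 * (flux low L T - flux low L R) ^ 2 ≤ (pairs low L T R).card := by
  classical
  have hle : ∀ x y, low x → ¬ low y → x < y := by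
    intro x y hx hy
    by_contra h
    exact hy (hlow _ _ (not_lt.1 h) hx)
  set U := (Finset.univ : Finset α).filter (fun p => low (L p) ∧ ¬ low (T p) ∧ low (R p)) with hU
  set D := (Finset.univ : Finset α).filter (fun p => ¬ low (L p) ∧ low (T p) ∧ ¬ low (R p)) with hD
  have hUc : flux low L T - flux low L R ≤ U.card := by
    rw [Nat.sub_le_iff_le_add]
    unfold flux
    refine le_trans (Finset.card_le_card ?_) (Finset.card_union_le _ _)
    intro p hp
    simp only [hU, Finset.mem_filter, Finset.mem_univ, true_and, Finset.mem_union] at hp ⊢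
    tauto
  have hDc : flux low L T - flux low L R ≤ D.card := by
    rw [Nat.sub_le_iff_le_add, ← flux_down low L T, ← flux_down low L R]
    refine le_trans (Finset.card_le_card ?_) (Finset.card_union_le _ _)
    intro p hp
    simp only [hD, Finset.mem_filter, Finset.mem_univ, true_and, Finset.mem_union] at hp ⊢
    tauto
  have hsub : (U ×ˢ D) ∪ (D ×ˢ U) ⊆ pairs low L T R := by
    rintro ⟨p, q⟩ h
    rw [mem_pairs]
    simp only [hU, hD, Finset.mem_product, Finset.mem_filter, Finset.mem_univ, true_and,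
      Finset.mem_union] at h
    rcases h with ⟨⟨a, b, c⟩, a', b', c'⟩ | ⟨⟨a', b', c'⟩, a, b, c⟩
    · refine ⟨?_, ?_, ?_⟩
      · intro h
        exact absurd (h.1 (hle _ _ a a')) (not_lt.2 (hle _ _ b' b).le)
      · intro h; exact a' (h.1 a)
      · intro h; exact c' (h.1 c)
    · refine ⟨?_, ?_, ?_⟩
      · intro h
        exact absurd (h.2 (hle _ _ b' b)) (not_lt.2 (hle _ _ a a').le)
      · intro h; exact a' (h.2 a)
      · intro h; exact c' (h.2 c)
  refine le_trans ?_ (Finset.card_le_card hsub)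
  rw [Finset.card_union_of_disjoint, Finset.card_product, Finset.card_product]
  · have := Nat.mul_le_mul hUc hDc
    have h2 := Nat.mul_le_mul hDc hUc
    nlinarith
  · rw [Finset.disjoint_left]
    rintro ⟨p, q⟩ h1 h2
    simp only [hU, hD, Finset.mem_product, Finset.mem_filter, Finset.mem_univ, true_and] at h1 h2
    exact h2.1.1 h1.1.1

end defs

section mix

variable {α : Type*} [LinearOrder α] [Fintype α] {Ω : Type*} [Fintype Ω]

open Classical in
/-- The pair inequality (PM) for the prefix `[L,T]` of the window `[L,R]`: for every pair of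
strands, the mass of `crossed in [L,T], separated at both ends of [L,R]` is at most `K` times the
mass of `crossed in [L,R], separated at both ends`. -/
def PM (μ : Ω → ℝ) (low : α → Prop) (K : ℝ) (L T R : Ω → Perm α) : Prop :=
  ∀ p q : α, p < q →
    ∑ ω, μ ω * (if Crossed (L ω) (T ω) p q ∧ Sep low (L ω) (R ω) p q then 1 else 0) ≤
    K * ∑ ω, μ ω * (if Crossed (L ω) (R ω) p q ∧ Sep low (L ω) (R ω) p q then 1 else 0)

omit [LinearOrder α] [Fintype α] in
theorem Sep.symm {low : α → Prop} {L R : Perm α} {p q : α} (h : Sep low L R p q) :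
    Sep low L R q p := ⟨fun hc => h.1 hc.symm, fun hc => h.2 hc.symm⟩

open Classical in
theorem sum_pairs_le {μ : Ω → ℝ} {low : α → Prop} {K : ℝ} {L T R : Ω → Perm α}
    (h : PM μ low K L T R) :
    ∑ ω, μ ω * ((pairs low (L ω) (T ω) (R ω)).card : ℝ) ≤
      K * ∑ ω, μ ω * ((pairs low (L ω) (R ω) (R ω)).card : ℝ) := by
  classical
  have e : ∀ T' : Ω → Perm α, ∑ ω, μ ω * ((pairs low (L ω) (T' ω) (R ω)).card : ℝ) =
      ∑ w : α × α, ∑ ω, μ ω *
        (if Crossed (L ω) (T' ω) w.1 w.2 ∧ Sep low (L ω) (R ω) w.1 w.2 then 1 else 0) := by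
    intro T'
    rw [Finset.sum_comm]
    refine Finset.sum_congr rfl (fun ω _ => ?_)
    rw [← Finset.mul_sum]
    congr 1
    unfold pairs
    rw [Finset.card_eq_sum_ones, Nat.cast_sum, Finset.sum_filter]
    simp
  rw [e T, e R, Finset.mul_sum]
  refine Finset.sum_le_sum (fun w _ => ?_)
  obtain ⟨p, q⟩ := w
  rcases lt_trichotomy p q with hpq | hpq | hpq
  · exact h p q hpq
  · subst hpq
    have : ∀ (A B : Perm α), ¬ Crossed A B p p := by
      intro A B hc; exact hc ⟨fun h => absurd h (lt_irrefl _), fun h => absurd h (lt_irrefl _)⟩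
    simp [this]
  · have := h q p hpq
    have s : ∀ (A B C : Perm α), (Crossed A B p q ∧ Sep low A C p q) ↔
        (Crossed A B q p ∧ Sep low A C q p) := by
      intro A B C
      exact ⟨fun h => ⟨h.1.symm hpq.ne', h.2.symm⟩, fun h => ⟨h.1.symm hpq.ne, h.2.symm⟩⟩
    simp only [s]
    exact this

/-- **STEP 5** (second moment mixing): (PM) for the prefixes `[L,T0]`, `[L,T1]` of `[L,R]` gives
`E r_[T0,T1]^2 ≤ (8 K + 8) E r_[L,R]^2`. -/
theorem second_moment_mix {μ : Ω → ℝ} (hμ : ∀ ω, 0 ≤ μ ω) {low : α → Prop}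
    (hlow : ∀ x y, x ≤ y → low y → low x) {K : ℝ} {L T0 T1 R : Ω → Perm α}
    (h0 : PM μ low K L T0 R) (h1 : PM μ low K L T1 R) :
    ∑ ω, μ ω * (flux low (T0 ω) (T1 ω) : ℝ) ^ 2 ≤
      (8 * K + 8) * ∑ ω, μ ω * (flux low (L ω) (R ω) : ℝ) ^ 2 := by
  classical
  -- one prefix
  have key : ∀ T : Ω → Perm α, PM μ low K L T R →
      ∑ ω, μ ω * (flux low (L ω) (T ω) : ℝ) ^ 2 ≤
        (2 * K + 2) * ∑ ω, μ ω * (flux low (L ω) (R ω) : ℝ) ^ 2 := by
    intro T hT
    have s := sum_pairs_le hT
    have e : ∑ ω, μ ω * ((pairs low (L ω) (R ω) (R ω)).card : ℝ) =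
        2 * ∑ ω, μ ω * (flux low (L ω) (R ω) : ℝ) ^ 2 := by
      rw [Finset.mul_sum]
      refine Finset.sum_congr rfl (fun ω _ => ?_)
      rw [card_pairs_eq low hlow]; push_cast; ring
    have e2 : ∑ ω, μ ω * (2 * ((flux low (L ω) (T ω) - flux low (L ω) (R ω) : ℕ) : ℝ) ^ 2) ≤
        ∑ ω, μ ω * ((pairs low (L ω) (T ω) (R ω)).card : ℝ) := by
      refine Finset.sum_le_sum (fun ω _ => mul_le_mul_of_nonneg_left ?_ (hμ ω))
      have := le_card_pairs low hlow (L ω) (T ω) (R ω)
      exact_mod_cast this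
    have e3 : ∑ ω, μ ω * (flux low (L ω) (T ω) : ℝ) ^ 2 ≤
        ∑ ω, μ ω * (2 * ((flux low (L ω) (T ω) - flux low (L ω) (R ω) : ℕ) : ℝ) ^ 2) +
        2 * ∑ ω, μ ω * (flux low (L ω) (R ω) : ℝ) ^ 2 := by
      rw [Finset.mul_sum, ← Finset.sum_add_distrib]
      refine Finset.sum_le_sum (fun ω _ => ?_)
      set x := flux low (L ω) (T ω)
      set y := flux low (L ω) (R ω)
      have hx : (x : ℝ) ≤ ((x - y : ℕ) : ℝ) + (y : ℝ) := by
        have : x ≤ (x - y) + y := by omega
        exact_mod_cast this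
      have hz : (0 : ℝ) ≤ ((x - y : ℕ) : ℝ) := Nat.cast_nonneg _
      have hy : (0 : ℝ) ≤ (y : ℝ) := Nat.cast_nonneg _
      have hx0 : (0 : ℝ) ≤ (x : ℝ) := Nat.cast_nonneg _
      have : (x : ℝ) ^ 2 ≤ 2 * ((x - y : ℕ) : ℝ) ^ 2 + 2 * (y : ℝ) ^ 2 := by
        nlinarith [sq_nonneg (((x - y : ℕ) : ℝ) - (y : ℝ)), mul_le_mul hx hx hx0 (by linarith)]
      nlinarith [hμ ω, mul_le_mul_of_nonneg_left this (hμ ω)]
    rw [e] at s
    linarith
  have k0 := key T0 h0
  have k1 := key T1 h1
  have k2 : ∑ ω, μ ω * (flux low (T0 ω) (T1 ω) : ℝ) ^ 2 ≤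
      2 * ∑ ω, μ ω * (flux low (L ω) (T0 ω) : ℝ) ^ 2 +
      2 * ∑ ω, μ ω * (flux low (L ω) (T1 ω) : ℝ) ^ 2 := by
    rw [Finset.mul_sum, Finset.mul_sum, ← Finset.sum_add_distrib]
    refine Finset.sum_le_sum (fun ω _ => ?_)
    have h := flux_le_add low (L ω) (T0 ω) (T1 ω)
    have h' : (flux low (T0 ω) (T1 ω) : ℝ) ≤
        (flux low (L ω) (T0 ω) : ℝ) + (flux low (L ω) (T1 ω) : ℝ) := by exact_mod_cast h
    have z0 : (0 : ℝ) ≤ (flux low (T0 ω) (T1 ω) : ℝ) := Nat.cast_nonneg _
    have z1 : (0 : ℝ) ≤ (flux low (L ω) (T0 ω) : ℝ) := Nat.cast_nonneg _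
    have z2 : (0 : ℝ) ≤ (flux low (L ω) (T1 ω) : ℝ) := Nat.cast_nonneg _
    have : (flux low (T0 ω) (T1 ω) : ℝ) ^ 2 ≤
        2 * (flux low (L ω) (T0 ω) : ℝ) ^ 2 + 2 * (flux low (L ω) (T1 ω) : ℝ) ^ 2 := by
      nlinarith [sq_nonneg ((flux low (L ω) (T0 ω) : ℝ) - (flux low (L ω) (T1 ω) : ℝ)),
        mul_le_mul h' h' z0 (by linarith)]
    nlinarith [hμ ω, mul_le_mul_of_nonneg_left this (hμ ω)]
  linarith

/-- **STEP 5, first moments**: if `r_[L,R] ≤ k` on the support and the total mass is at most `1`,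
`(E r_[T0,T1])^2 ≤ (8 K + 8) k E r_[L,R]`. -/
theorem first_moment_mix {μ : Ω → ℝ} (hμ : ∀ ω, 0 ≤ μ ω) (hμ1 : ∑ ω, μ ω ≤ 1) {low : α → Prop}
    (hlow : ∀ x y, x ≤ y → low y → low x) {K : ℝ} (hK : 0 ≤ K) {L T0 T1 R : Ω → Perm α}
    (h0 : PM μ low K L T0 R) (h1 : PM μ low K L T1 R) {k : ℝ}
    (hk : ∀ ω, μ ω ≠ 0 → (flux low (L ω) (R ω) : ℝ) ≤ k) :
    (∑ ω, μ ω * (flux low (T0 ω) (T1 ω) : ℝ)) ^ 2 ≤
      (8 * K + 8) * k * ∑ ω, μ ω * (flux low (L ω) (R ω) : ℝ) := by
  classical
  have s := second_moment_mix hμ hlow h0 h1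
  have cs : (∑ ω, μ ω * (flux low (T0 ω) (T1 ω) : ℝ)) ^ 2 ≤
      ∑ ω, μ ω * (flux low (T0 ω) (T1 ω) : ℝ) ^ 2 := by
    have h := Finset.sum_mul_sq_le_sq_mul_sq Finset.univ (fun ω => Real.sqrt (μ ω))
      (fun ω => Real.sqrt (μ ω) * (flux low (T0 ω) (T1 ω) : ℝ))
    have e1 : ∑ ω, Real.sqrt (μ ω) * (Real.sqrt (μ ω) * (flux low (T0 ω) (T1 ω) : ℝ)) =
        ∑ ω, μ ω * (flux low (T0 ω) (T1 ω) : ℝ) := by
      refine Finset.sum_congr rfl (fun ω _ => ?_)
      rw [← mul_assoc, Real.mul_self_sqrt (hμ ω)]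
    have e2 : ∑ ω, Real.sqrt (μ ω) ^ 2 = ∑ ω, μ ω :=
      Finset.sum_congr rfl (fun ω _ => Real.sq_sqrt (hμ ω))
    have e3 : ∑ ω, (Real.sqrt (μ ω) * (flux low (T0 ω) (T1 ω) : ℝ)) ^ 2 =
        ∑ ω, μ ω * (flux low (T0 ω) (T1 ω) : ℝ) ^ 2 :=
      Finset.sum_congr rfl (fun ω _ => by rw [mul_pow, Real.sq_sqrt (hμ ω)])
    rw [e1, e2, e3] at h
    have hnn : 0 ≤ ∑ ω, μ ω * (flux low (T0 ω) (T1 ω) : ℝ) ^ 2 :=
      Finset.sum_nonneg (fun ω _ => mul_nonneg (hμ ω) (sq_nonneg _))
    nlinarith
  have c2 : ∑ ω, μ ω * (flux low (L ω) (R ω) : ℝ) ^ 2 ≤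
      k * ∑ ω, μ ω * (flux low (L ω) (R ω) : ℝ) := by
    rw [Finset.mul_sum]
    refine Finset.sum_le_sum (fun ω _ => ?_)
    by_cases h : μ ω = 0
    · rw [h]; simp
    · have z : (0 : ℝ) ≤ (flux low (L ω) (R ω) : ℝ) := Nat.cast_nonneg _
      have := hk ω h
      nlinarith [mul_le_mul_of_nonneg_right this z, hμ ω, mul_nonneg (hμ ω) z,
        mul_le_mul_of_nonneg_left (mul_le_mul_of_nonneg_right this z) (hμ ω)]
  have : (8 * K + 8) * ∑ ω, μ ω * (flux low (L ω) (R ω) : ℝ) ^ 2 ≤
      (8 * K + 8) * (k * ∑ ω, μ ω * (flux low (L ω) (R ω) : ℝ)) :=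
    mul_le_mul_of_nonneg_left c2 (by linarith)
  linarith

end mix

end VPBruhat
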